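import Vale.Agent.P028.Main

namespace Vale.Agent.Results.P028.A_EV
open MeasureTheory

theorem result (γ : ℝ) (ψ : ℕ → ℝ) (h0 : ∀ q, 0 ≤ ψ q) :
    ((¬ Summable fun q : ℕ => (q.totient : ℝ) / q * min (ψ q) (1 / q)) →
      volume {x : ℝ | {q : ℕ | 0 < q ∧ ∃ a : ℤ, |q * x - a - γ| < ψ q}.Infinite}ᶜ = 0) ∧
    ((∃ C : ℝ, ∀ q : ℕ, 0 < q → ψ q ≤ C / q) →
      (¬ Summable fun q : ℕ => (q.totient : ℝ) / q * ψ q) →
      volume {x : ℝ | {q : ℕ | 0 < q ∧ ∃ a : ℤ, |q * x - a - γ| < ψ q}.Infinite}ᶜ = 0) := by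
  refine ⟨fun h => Vale.Agent.P028.main γ ψ h0 h, fun ⟨C, hC⟩ h =>
    Vale.Agent.P028.main γ ψ h0 fun hs => h ((hs.mul_left (max C 1)).of_nonneg_of_le
      (fun q => mul_nonneg (by positivity) (h0 q)) fun q => ?_)⟩
  rcases Nat.eq_zero_or_pos q with rfl | hq
  · simp
  rw [mul_left_comm, mul_min_of_nonneg _ _ (le_max_of_le_right zero_le_one)]
  refine mul_le_mul_of_nonneg_left (le_min (le_mul_of_one_le_left (h0 q) (le_max_right _ _))
    ((hC q hq).trans ?_)) (by positivity)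
  rw [mul_one_div]
  exact div_le_div_of_nonneg_right (le_max_left _ _) (Nat.cast_nonneg _)

end Vale.Agent.Results.P028.A_EV
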